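import Mathlib
import Vale.Agent.P195.Defs
import Vale.Agent.P195.Criterion

/-!
# The Auslander-Reiten conjecture for Igusa-Todorov algebras
-/

universe v u

namespace Vale.Agent.Results.P195.IgusaTodorov

open CategoryTheory Vale.Agent.P195

/-- Part 1: if the Artin algebra `A` is an Igusa-Todorov algebra, there is a number `N` such that
every finitely generated `A`-module `M` with `Ext^i(M, M) = 0 = Ext^i(M, A)` for `1 ≤ i ≤ N` is
projective. Part 2: over any Artin algebra `A`, a finitely generated `M` satisfying (AR) is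
projective as soon as there is one finitely generated `V` such that for infinitely many `n` some
`n`-th syzygy `K` of `M` has an exact sequence `0 → V₁ → V₀ → K → 0` with `V₁, V₀ ∈ add V`. -/
theorem result (R : Type v) [CommRing R] [IsArtinianRing R] (A : Type u) [Ring A] [Algebra R A]
    [Module.Finite R A] :
    (IsIgusaTodorov A →
      ∃ N : ℕ, ∀ (M : Type u) [AddCommGroup M] [Module A M] [Module.Finite A M],
        (∀ i : ℕ, 1 ≤ i → i ≤ N →
          Subsingleton (Abelian.Ext (ModuleCat.of A M) (ModuleCat.of A M) i)) →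
        (∀ i : ℕ, 1 ≤ i → i ≤ N →
          Subsingleton (Abelian.Ext (ModuleCat.of A M) (ModuleCat.of A A) i)) →
        Module.Projective A M) ∧
    (∀ (M : Type u) [AddCommGroup M] [Module A M] [Module.Finite A M],
      (∀ i : ℕ, 1 ≤ i →
        Subsingleton (Abelian.Ext (ModuleCat.of A M) (ModuleCat.of A M) i)) →
      (∀ i : ℕ, 1 ≤ i →
        Subsingleton (Abelian.Ext (ModuleCat.of A M) (ModuleCat.of A A) i)) →
      (∃ V : ModuleCat.{u} A, Module.Finite A V ∧ ∀ n₀ : ℕ, ∃ n : ℕ, n₀ ≤ n ∧
        ∃ K : ModuleCat.{u} A, IsSyzygyOf (ModuleCat.of A M) n K ∧ ShortResolution A V K) →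
      Module.Projective A M) := by
  have hart : IsArtinianRing A := IsArtinianRing.of_finite R A
  constructor
  · rintro ⟨s, V, hV, hIT⟩
    obtain ⟨t, ht⟩ := main_criterion R A V
    refine ⟨s + 2 * t + 2, ?_⟩
    intro M _ _ hM h1 h2
    obtain ⟨c, hc⟩ := exists_chain (ModuleCat.of A M) hM
    rw [← hc] at h1 h2
    have hproj := ht c (s + 2 * t + 1) (fun k => (2 * k + 1) + s)
      (by intro k l hkl; have : (k : ℕ) < l := hkl; omega) (by intro k; omega)
      (by intro k; have := k.2; omega) h1 h2 (by
        intro k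
        obtain ⟨K, hK, hres⟩ := hIT (c.M (0 + (2 * k + 1))) (c.finM _)
        exact ⟨K, (c.isSyzygyOf 0 (2 * k + 1)).trans hK, hres⟩)
    rw [hc] at hproj
    exact hproj
  · intro M _ _ hM h1 h2 ⟨V, hV, hinf⟩
    obtain ⟨t, ht⟩ := main_criterion R A V
    obtain ⟨c, hc⟩ := exists_chain (ModuleCat.of A M) hM
    rw [← hc] at h1 h2 hinf
    choose f hf hdata using hinf
    let ν : ℕ → ℕ := fun k => Nat.rec (f 1) (fun _ m => f (m + 2)) k
    have hν0 : ν 0 = f 1 := rfl
    have hνs : ∀ k, ν (k + 1) = f (ν k + 2) := fun k => rfl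
    have hstep : ∀ k, ν k + 2 ≤ ν (k + 1) := fun k => by rw [hνs]; exact hf _
    have hmono : ∀ k l, k < l → ν k + 2 ≤ ν l := by
      intro k l hkl
      induction l, hkl using Nat.le_induction with
      | base => exact hstep k
      | succ l _ ih => exact (ih.trans (by omega)).trans (hstep l)
    have hmono' : ∀ k l, k ≤ l → ν k ≤ ν l := by
      intro k l hkl
      rcases hkl.eq_or_lt with rfl | h
      · exact le_rfl
      · have := hmono k l h
        omega
    have hpos : ∀ k, 1 ≤ ν k := fun k => (hf 1).trans (hmono' 0 k (Nat.zero_le k))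
    have hdata' : ∀ k, ∃ K : ModuleCat.{u} A, IsSyzygyOf (c.M 0) (ν k) K ∧
        ShortResolution A V K := by
      intro k
      cases k with
      | zero => exact hdata 1
      | succ k => exact hdata (ν k + 2)
    have hproj := ht c (ν t) (fun k => ν k) (fun k l hkl => hmono k l hkl) (fun k => hpos k)
      (fun k => hmono' k t (by have := k.2; omega)) (fun i hi _ => h1 i hi)
      (fun i hi _ => h2 i hi) (fun k => hdata' k)
    rw [hc] at hproj
    exact hproj

end Vale.Agent.Results.P195.IgusaTodorov
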