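import Mathlib
import Vale.Agent.P195.Defs
import Vale.Agent.P195.Uniform

/-!
# The Auslander-Reiten conjecture for Igusa-Todorov algebras and some of their subclasses
-/

universe v u

namespace Vale.Agent.Results.P195.Main

open CategoryTheory Vale.Agent.P195

/-- Let `A` be an Artin algebra with Jacobson radical `J`.

Part 1. Suppose that one of the following holds:
* `A` is an Igusa-Todorov algebra;
* `A` has a finitely generated generator `V` such that `End_A(V)` has global dimension at most
  three (for instance, `A` has representation dimension at most three);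
* there are two-sided ideals `I₁, I₂` with `I₂ I₁ J = 0` such that `A ⧸ I₁` and `A ⧸ I₂` are
  representation-finite (for instance `J ^ (2 * l + 1) = 0` and `A ⧸ J ^ l` is
  representation-finite);
* `J ^ 3 = 0`.
Then there is a number `N` such that every finitely generated `A`-module `M` with
`Ext^i(M, M) = 0 = Ext^i(M, A)` for `1 ≤ i ≤ N` is projective.

Part 2. Over any Artin algebra `A`, a finitely generated module `M` satisfying (AR) is projective
as soon as there is one finitely generated `V` such that for infinitely many `n` some `n`-th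
syzygy `K` of `M` has an exact sequence `0 → V₁ → V₀ → K → 0` with `V₁, V₀ ∈ add V`. -/
theorem result (R : Type v) [CommRing R] [IsArtinianRing R] (A : Type u) [Ring A] [Algebra R A]
    [Module.Finite R A] :
    ((IsIgusaTodorov A ∨ HasGeneratorOfDimThree A ∨
        (∃ (I₁ I₂ : Ideal A) (_ : I₁.IsTwoSided) (_ : I₂.IsTwoSided),
          I₂ * I₁ * Ring.jacobson A = ⊥ ∧ FiniteRepType (A ⧸ I₁) ∧ FiniteRepType (A ⧸ I₂)) ∨
        Ring.jacobson A ^ 3 = ⊥) →
      ∃ N : ℕ, ∀ (M : Type u) [AddCommGroup M] [Module A M] [Module.Finite A M],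
        (∀ i : ℕ, 1 ≤ i → i ≤ N →
          Subsingleton (Abelian.Ext (ModuleCat.of A M) (ModuleCat.of A M) i)) →
        (∀ i : ℕ, 1 ≤ i → i ≤ N →
          Subsingleton (Abelian.Ext (ModuleCat.of A M) (ModuleCat.of A A) i)) →
        Module.Projective A M) ∧
    (∀ (M : Type u) [AddCommGroup M] [Module A M] [Module.Finite A M],
      (∀ i : ℕ, 1 ≤ i →
        Subsingleton (Abelian.Ext (ModuleCat.of A M) (ModuleCat.of A M) i)) →
      (∀ i : ℕ, 1 ≤ i →
        Subsingleton (Abelian.Ext (ModuleCat.of A M) (ModuleCat.of A A) i)) →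
      (∃ V : ModuleCat.{u} A, Module.Finite A V ∧ ∀ n₀ : ℕ, ∃ n : ℕ, n₀ ≤ n ∧
        ∃ K : ModuleCat.{u} A, IsSyzygyOf (ModuleCat.of A M) n K ∧ ShortResolution A V K) →
      Module.Projective A M) := by
  have hart : IsArtinianRing A := IsArtinianRing.of_finite R A
  refine ⟨?_, fun M _ _ _ h1 h2 h => projective_of_short_resolutions R A M h1 h2 h⟩
  rintro (h | h | ⟨I₁, I₂, _, _, hI, hr₁, hr₂⟩ | h)
  · exact uniform_of_igusaTodorov R A h
  · exact uniform_of_igusaTodorov R A (isIgusaTodorov_of_hasGenerator R A h)
  · exact uniform_of_igusaTodorov R A (isIgusaTodorov_of_two_ideals I₁ I₂ hI hr₁ hr₂)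
  · exact uniform_of_igusaTodorov R A (isIgusaTodorov_of_radCubeZero A h)

end Vale.Agent.Results.P195.Main
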