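import Mathlib
import Vale.Agent.P195.Engine

/-!
# The Auslander-Reiten conjecture for Artin algebras with radical cube zero
-/

universe v u

namespace Vale.Agent.Results.P195.RadCubeZero

open CategoryTheory Vale.Agent.P195

/-- Let `A` be an Artin algebra whose Jacobson radical `J` satisfies `J ^ 3 = 0`. Then there is a
number `N` such that every finitely generated `A`-module `M` with
`Ext^i(M, M) = 0 = Ext^i(M, A)` for `1 ≤ i ≤ N` is projective. -/
theorem result (R : Type v) [CommRing R] [IsArtinianRing R] (A : Type u) [Ring A] [Algebra R A]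
    [Module.Finite R A] (hJ : Ring.jacobson A ^ 3 = ⊥) :
    ∃ N : ℕ, ∀ (M : Type u) [AddCommGroup M] [Module A M] [Module.Finite A M],
      (∀ i : ℕ, 1 ≤ i → i ≤ N →
        Subsingleton (Abelian.Ext (ModuleCat.of A M) (ModuleCat.of A M) i)) →
      (∀ i : ℕ, 1 ≤ i → i ≤ N →
        Subsingleton (Abelian.Ext (ModuleCat.of A M) (ModuleCat.of A A) i)) →
      Module.Projective A M := by
  have hart : IsArtinianRing A := IsArtinianRing.of_finite R A
  obtain ⟨r, S, hsimple, hS⟩ := exists_simple_list (A := A)
  refine engine R A r ?_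
  intro c L hext
  have hfinM := c.finM
  -- the radical of a syzygy is semisimple
  have hss : ∀ k, IsSemisimpleModule A
      ↥(Ring.jacobson A • (⊤ : Submodule A (c.M (k + 1)))) := by
    intro k
    apply semisimple_of_jacobson_smul_eq_zero
    intro j hj y
    have hbot : Ring.jacobson A • (Ring.jacobson A • (⊤ : Submodule A (c.M (k + 1)))) = ⊥ := by
      apply Submodule.map_injective_of_injective (c.inj k)
      rw [Submodule.map_bot, eq_bot_iff, Submodule.map_smul'', Submodule.map_smul'',
        Submodule.map_top]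
      have h1 : Ring.jacobson A • (Ring.jacobson A • LinearMap.range (c.incl k)) ≤
          Ring.jacobson A • (Ring.jacobson A • (Ring.jacobson A • (⊤ : Submodule A (c.P k)))) :=
        smul_mono_right _ (smul_mono_right _ (c.minimal k))
      refine h1.trans ?_
      rw [← Submodule.mul_smul, ← Submodule.mul_smul]
      have h2 : Ring.jacobson A * Ring.jacobson A * Ring.jacobson A = Ring.jacobson A ^ 3 := by
        rw [Submodule.pow_succ, Submodule.pow_succ, Submodule.pow_one]
      rw [h2, hJ, Submodule.bot_smul]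
    apply Subtype.ext
    have h3 : j • (y : c.M (k + 1)) ∈
        Ring.jacobson A • (Ring.jacobson A • (⊤ : Submodule A (c.M (k + 1)))) :=
      Submodule.smul_mem_smul hj y.2
    rw [hbot] at h3
    exact h3
  have hcomb : ∀ k, ∃ d : Fin r → ℕ, ∀ m,
      hl R A (c.M m ⧸ (⊥ : Submodule A (c.M m)))
        ↥(Ring.jacobson A • (⊤ : Submodule A (c.M (k + 1)))) =
      ∑ i, d i * hl R A (c.M m ⧸ (⊥ : Submodule A (c.M m))) (S i) := by
    intro k
    have hfin : Module.Finite A ↥(Ring.jacobson A • (⊤ : Submodule A (c.M (k + 1)))) :=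
      inferInstance
    have hfl : IsFiniteLength A ↥(Ring.jacobson A • (⊤ : Submodule A (c.M (k + 1)))) :=
      ((IsArtinianRing.tfae A ↥(Ring.jacobson A • (⊤ : Submodule A (c.M (k + 1))))).out 0 3).1
        hfin
    obtain ⟨d, hd⟩ := homLen_semisimple_combination R S hS _ hfl (hss k)
    refine ⟨d, fun m => ?_⟩
    have h1 := hd (c.M m ⧸ (⊥ : Submodule A (c.M m)))
    rw [← coe_hl R A] at h1
    have h2 : ∀ i, homLen R A (c.M m ⧸ (⊥ : Submodule A (c.M m))) (S i) =
        (hl R A (c.M m ⧸ (⊥ : Submodule A (c.M m))) (S i) : ℕ∞) := by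
      intro i
      have := hsimple i
      exact (coe_hl R A _ _).symm
    simp only [h2] at h1
    exact_mod_cast h1
  choose d hd using hcomb
  refine ⟨fun _ => ⊥, fun i m => hl R A (c.M m ⧸ (⊥ : Submodule A (c.M m))) (S i),
    fun i n => d (n - 1) i, ?_, ?_⟩
  · intro m n _ _ _ f
    exact bot_le
  · intro m n hm hn
    obtain ⟨k, rfl⟩ : ∃ k, n = k + 1 := ⟨n - 1, by omega⟩
    rw [hd k m]
    refine Finset.sum_congr rfl fun i _ => ?_
    rw [mul_comm]
    rfl

end Vale.Agent.Results.P195.RadCubeZero
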