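import Mathlib
import Vale.Agent.P195.Defs
import Vale.Agent.P195.Uniform

/-!
# The Auslander-Reiten conjecture for Artin algebras of representation dimension at most three
-/

universe v u

namespace Vale.Agent.Results.P195.RepDimThree

open CategoryTheory Vale.Agent.P195

/-- Let `A` be an Artin algebra with a finitely generated generator `V` such that `End_A(V)` has
global dimension at most three (for instance, `A` has representation dimension at most three).
Then there is a number `N` such that every finitely generated `A`-module `M` with
`Ext^i(M, M) = 0 = Ext^i(M, A)` for `1 ≤ i ≤ N` is projective. -/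
theorem result (R : Type v) [CommRing R] [IsArtinianRing R] (A : Type u) [Ring A] [Algebra R A]
    [Module.Finite R A] (hA : HasGeneratorOfDimThree A) :
    ∃ N : ℕ, ∀ (M : Type u) [AddCommGroup M] [Module A M] [Module.Finite A M],
      (∀ i : ℕ, 1 ≤ i → i ≤ N →
        Subsingleton (Abelian.Ext (ModuleCat.of A M) (ModuleCat.of A M) i)) →
      (∀ i : ℕ, 1 ≤ i → i ≤ N →
        Subsingleton (Abelian.Ext (ModuleCat.of A M) (ModuleCat.of A A) i)) →
      Module.Projective A M :=
  uniform_of_igusaTodorov R A (isIgusaTodorov_of_hasGenerator R A hA)

end Vale.Agent.Results.P195.RepDimThree
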